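import Vale.Agent.Lib.P195.Bridge

/-!
The Auslander-Reiten conjecture for every Artin algebra `R` with `(rad R)³ = 0`, with the vanishing
required only in a finite range of degrees depending on the length of `R / rad R`.
-/

open CategoryTheory Abelian

namespace Vale.Agent.Results.P195.B_finite_range

universe u w

/-- Let `R` be an Artin algebra with `(rad R)³ = 0` and let `ℓ` be the length of `R / rad R` as a
left `R`-module.  If `M` is a finitely generated left `R`-module with `Ext^i(M, M) = 0` and
`Ext^i(M, R) = 0` for all `1 ≤ i ≤ 2 ℓ + 2`, then `M` is projective. -/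
theorem result (k : Type w) [CommRing k] [IsArtinianRing k] (R : Type u) [Ring R] [Algebra k R]
    [Module.Finite k R]
    (hJ : ∀ a ∈ Ring.jacobson R, ∀ b ∈ Ring.jacobson R, ∀ c ∈ Ring.jacobson R, a * b * c = 0)
    (M : Type u) [AddCommGroup M] [Module R M] [Module.Finite R M]
    (hMM : ∀ i : ℕ, 1 ≤ i → (i : ℕ∞) ≤ 2 * Module.length R (R ⧸ Ring.jacobson R) + 2 →
      ∀ e : Ext (ModuleCat.of R M) (ModuleCat.of R M) i, e = 0)
    (hMR : ∀ i : ℕ, 1 ≤ i → (i : ℕ∞) ≤ 2 * Module.length R (R ⧸ Ring.jacobson R) + 2 →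
      ∀ e : Ext (ModuleCat.of R M) (ModuleCat.of R R) i, e = 0) :
    Module.Projective R M :=
  Vale.Agent.Lib.P195.projective_of_ext_vanishing_range k R hJ M hMM hMR

end Vale.Agent.Results.P195.B_finite_range
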